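import Mathlib

/-!
# P207, line N4, rows S-BUNDLE / LEMMA Q: the abstract zoom data (Mathlib only)

`X` = frames over the unit tangent bundle, `E` = the unstable space, `W` = the space of (symmetric
bilinear) forms `s` on `E`, `N v x s = ⟨N_v(x), s⟩` the stable bundle in the affine chart of the
leaf of `v` (on the unit disc), paired with `s`. No topology on `X`: convergence means uniform
convergence of `N` on the unit disc.
-/

set_option linter.all false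

open Metric Set Filter Topology
open scoped ContDiff

namespace Vale.Agent.P207.H686

/-- chains of steps: `Ch St v n A L v'` : `v'` is reached from `v` by `n` steps, `A`, `L` are the
total actions on `E` and on the forms -/
inductive Ch {E W X : Type*} [NormedAddCommGroup E] [NormedSpace ℝ E] [NormedAddCommGroup W]
    [NormedSpace ℝ W] (St : X → (E ≃L[ℝ] E) → (W ≃L[ℝ] W) → X → Prop) :
    X → ℕ → (E ≃L[ℝ] E) → (W ≃L[ℝ] W) → X → Prop
  | zero (v : X) : Ch St v 0 (ContinuousLinearEquiv.refl ℝ E) (ContinuousLinearEquiv.refl ℝ W) v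
  | succ {v : X} {n : ℕ} {A : E ≃L[ℝ] E} {L : W ≃L[ℝ] W} {v' : X} {A' : E ≃L[ℝ] E}
      {L' : W ≃L[ℝ] W} {v'' : X} (h : Ch St v n A L v') (h' : St v' A' L' v'') :
      Ch St v (n + 1) (A.trans A') (L.trans L') v''

/-- the zoom data -/
structure ZD (E W X : Type*) [NormedAddCommGroup E] [NormedSpace ℝ E] [NormedAddCommGroup W]
    [NormedSpace ℝ W] where
  /-- the tensor in the affine charts, paired with forms -/
  N : X → E → W →L[ℝ] ℝ
  K : ℝ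
  bd : ∀ v, ∀ x ∈ ball (0 : E) 1, ‖N v x‖ ≤ K
  cont : ∀ v, ContinuousOn (N v) (ball 0 1)
  lam : ℝ
  lam0 : 0 < lam
  lam1 : lam < 1
  Lam : ℝ
  Lam1 : 1 ≤ Lam
  /-- `2 b < 3 a` -/
  gap : lam ^ 3 * Lam < 1
  mu : ℝ
  mu1 : 1 ≤ mu
  M : ℕ → ℝ
  /-- one step of the flow (a fixed large time): `A` on `E`, `L` on forms -/
  St : X → (E ≃L[ℝ] E) → (W ≃L[ℝ] W) → X → Prop
  St_A : ∀ {v A L v'}, St v A L v' → ∀ x, ‖A.symm x‖ ≤ lam * ‖x‖
  St_A' : ∀ {v A L v'}, St v A L v' → ∀ x, ‖A x‖ ≤ mu * ‖x‖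
  St_L : ∀ {v A L v'}, St v A L v' → ∀ s, ‖L.symm s‖ ≤ Lam * ‖s‖
  /-- forms are pushed forward by `s (A⁻¹ ·, A⁻¹ ·)` -/
  St_L' : ∀ {v A L v'}, St v A L v' → ∀ s, ‖L s‖ ≤ lam ^ 2 * ‖s‖
  St_N : ∀ {v A L v'}, St v A L v' → ∃ e : E → W →L[ℝ] ℝ, ContDiffOn ℝ ∞ e (ball 0 1) ∧
    (∀ k, ∀ x ∈ ball (0 : E) 1, ‖iteratedFDeriv ℝ k e x‖ ≤ M k) ∧
    ∀ x ∈ ball (0 : E) 1, ∀ s, N v' x (L s) = N v (A.symm x) s + e x (L s)
  /-- every frame has a successor and a predecessor -/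
  St_next : ∀ v, ∃ A L v', St v A L v'
  St_prev : ∀ v', ∃ v A L, St v A L v'
  /-- change of base point (to the point `p` of the disc) and of frame on one leaf -/
  BC : X → E → (E ≃L[ℝ] E) → (W ≃L[ℝ] W) → X → Prop
  Kb : ℝ
  Kb1 : 1 ≤ Kb
  BC_p : ∀ {v p R S v'}, BC v p R S v' → ‖p‖ < 1
  BC_R : ∀ {v p R S v'}, BC v p R S v' → (∀ x, ‖R x‖ ≤ Kb * ‖x‖) ∧ ∀ x, ‖R.symm x‖ ≤ Kb * ‖x‖
  BC_S : ∀ {v p R S v'}, BC v p R S v' → (∀ s, ‖S s‖ ≤ Kb * ‖s‖) ∧ ∀ s, ‖S.symm s‖ ≤ Kb * ‖s‖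
  BC_N : ∀ {v p R S v'}, BC v p R S v' → ∃ e : E → W →L[ℝ] ℝ,
    ContDiffOn ℝ ∞ e {x | x ∈ ball (0 : E) 1 ∧ p + R.symm x ∈ ball (0 : E) 1} ∧
    (∀ k, ∀ x ∈ ball (0 : E) 1, p + R.symm x ∈ ball (0 : E) 1 → ‖iteratedFDeriv ℝ k e x‖ ≤ M k) ∧
    ∀ x ∈ ball (0 : E) 1, p + R.symm x ∈ ball (0 : E) 1 → ∀ s,
      N v' x (S s) = N v (p + R.symm x) s + e x (S s)
  /-- base changes to every point of the disc exist -/
  BC_ex : ∀ v, ∀ p ∈ ball (0 : E) 1, ∃ R S v', BC v p R S v'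
  /-- compactness -/
  cpt : ∀ v : ℕ → X, ∃ w, ∃ ψ : ℕ → ℕ, StrictMono ψ ∧
    TendstoUniformlyOn (fun n => N (v (ψ n))) (N w) atTop (ball 0 1)
  /-- the images of an open piece of a leaf become dense -/
  dense : ∀ (v : X) (O : Set E), IsOpen O → O ⊆ ball 0 1 → O.Nonempty → ∀ w : X,
    ∃ (p : ℕ → E) (R : ℕ → E ≃L[ℝ] E) (S : ℕ → W ≃L[ℝ] W) (u : ℕ → X) (n : ℕ → ℕ)
      (A : ℕ → E ≃L[ℝ] E) (L : ℕ → W ≃L[ℝ] W) (w' : ℕ → X), (∀ i, p i ∈ O) ∧
      (∀ i, BC v (p i) (R i) (S i) (u i)) ∧ (∀ i, Ch St (u i) (n i) (A i) (L i) (w' i)) ∧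
      Tendsto n atTop atTop ∧ TendstoUniformlyOn (fun i => N (w' i)) (N w) atTop (ball 0 1)

variable {E W X : Type*} [NormedAddCommGroup E] [NormedSpace ℝ E] [NormedAddCommGroup W]
  [NormedSpace ℝ W]

namespace ZD

/-- the forms which make `N` smooth on the open piece `O` of the disc of `v` -/
def SmO (D : ZD E W X) (v : X) (O : Set E) : Submodule ℝ W where
  carrier := {s | ContDiffOn ℝ ∞ (fun x => D.N v x s) O}
  add_mem' := by
    intro a b ha hb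
    have h := ContDiffOn.add ha hb
    refine h.congr (fun x hx => ?_)
    simp
  zero_mem' := by
    show ContDiffOn ℝ ∞ (fun x => D.N v x 0) O
    simp only [map_zero]
    exact contDiffOn_const
  smul_mem' := by
    intro c a ha
    have h := ContDiffOn.const_smul c ha
    refine h.congr (fun x hx => ?_)
    simp

/-- **the S-bundle** -/
def Sm (D : ZD E W X) (v : X) : Submodule ℝ W := D.SmO v (ball 0 1)

theorem mem_SmO {D : ZD E W X} {v : X} {O : Set E} {s : W} :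
    s ∈ D.SmO v O ↔ ContDiffOn ℝ ∞ (fun x => D.N v x s) O := Iff.rfl

theorem SmO_mono {D : ZD E W X} {v : X} {O O' : Set E} (h : O ⊆ O') : D.SmO v O' ≤ D.SmO v O :=
  fun s hs => ContDiffOn.mono hs h

end ZD

end Vale.Agent.P207.H686
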