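import Mathlib

/-!
# P207: one singular value from the determinant and the norm

`det_norm_le` : `|det A| ‖v‖ ≤ ‖A‖^(n-1) ‖A v‖` (Hadamard).
-/

set_option linter.all false

open Module

namespace Vale.Agent.P207.H686

variable {E : Type*} [NormedAddCommGroup E] [InnerProductSpace ℝ E] [FiniteDimensional ℝ E]

/-- Hadamard's inequality in an orthonormal basis -/
theorem hadamard {n : ℕ} [Fact (finrank ℝ E = n)] (b : OrthonormalBasis (Fin n) ℝ E)
    (w : Fin n → E) : |b.toBasis.det w| ≤ ∏ i, ‖w i‖ := by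
  have h := Orientation.abs_volumeForm_apply_le b.toBasis.orientation w
  rwa [Orientation.volumeForm_robust b.toBasis.orientation b rfl] at h

/-- **one singular value from the determinant and the norm** -/
theorem det_norm_le (A : E →L[ℝ] E) {m : ℕ} (hm : finrank ℝ E = m + 1) (v : E) :
    |LinearMap.det (A : E →ₗ[ℝ] E)| * ‖v‖ ≤ ‖A‖ ^ m * ‖A v‖ := by
  rcases eq_or_ne v 0 with rfl | hv
  · simp
  haveI : Fact (finrank ℝ E = m + 1) := ⟨hm⟩
  have hv0 : 0 < ‖v‖ := norm_pos_iff.2 hv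
  set u : E := ‖v‖⁻¹ • v with hu
  have hu1 : ‖u‖ = 1 := by
    rw [hu, norm_smul, norm_inv, norm_norm, inv_mul_cancel₀ hv0.ne']
  have hor : Orthonormal ℝ (Set.restrict ({0} : Set (Fin (m + 1))) fun _ => u) := by
    constructor
    · intro i
      exact hu1
    · intro i j hij
      exfalso
      apply hij
      have h1 := i.2
      have h2 := j.2
      rw [Set.mem_singleton_iff] at h1 h2
      exact Subtype.ext (h1.trans h2.symm)
  obtain ⟨b, hb⟩ := hor.exists_orthonormalBasis_extension_of_card_eq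
    (by rw [hm, Fintype.card_fin])
  have hb0 : b 0 = u := hb 0 (Set.mem_singleton _)
  have hdet : LinearMap.det (A : E →ₗ[ℝ] E) = b.toBasis.det (fun i => A (b i)) := by
    have h1 := b.toBasis.det_comp (A : E →ₗ[ℝ] E) b.toBasis
    rw [Basis.det_self, mul_one] at h1
    rw [← h1]
    congr 1
  have h1 : |LinearMap.det (A : E →ₗ[ℝ] E)| ≤ ‖A u‖ * ‖A‖ ^ m := by
    rw [hdet]
    refine (hadamard b _).trans ?_
    rw [Fin.prod_univ_succ, hb0]
    refine mul_le_mul_of_nonneg_left ?_ (norm_nonneg _)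
    calc ∏ i : Fin m, ‖A (b i.succ)‖ ≤ ∏ i : Fin m, ‖A‖ := by
          refine Finset.prod_le_prod (fun i _ => norm_nonneg _) fun i _ => ?_
          have := A.le_opNorm (b i.succ)
          rwa [b.orthonormal.1, mul_one] at this
      _ = ‖A‖ ^ m := by simp
  have h2 : ‖A u‖ * ‖v‖ = ‖A v‖ := by
    rw [hu, map_smul, norm_smul, norm_inv, norm_norm, mul_comm ‖v‖⁻¹, mul_assoc,
      inv_mul_cancel₀ hv0.ne', mul_one]
  calc |LinearMap.det (A : E →ₗ[ℝ] E)| * ‖v‖ ≤ (‖A u‖ * ‖A‖ ^ m) * ‖v‖ :=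
        mul_le_mul_of_nonneg_right h1 hv0.le
    _ = ‖A‖ ^ m * (‖A u‖ * ‖v‖) := by ring
    _ = _ := by rw [h2]

/-- the inverse -/
theorem norm_le_det (A A' : E →L[ℝ] E) (h : A'.comp A = ContinuousLinearMap.id ℝ E) {m : ℕ}
    (hm : finrank ℝ E = m + 1) (v : E) :
    ‖A v‖ ≤ |LinearMap.det (A : E →ₗ[ℝ] E)| * ‖A'‖ ^ m * ‖v‖ := by
  have h1 := det_norm_le A' hm (A v)
  have h2 : A' (A v) = v := congrArg (fun T : E →L[ℝ] E => T v) h
  have h3 : LinearMap.det (A' : E →ₗ[ℝ] E) * LinearMap.det (A : E →ₗ[ℝ] E) = 1 := by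
    have h4 : (A' : E →ₗ[ℝ] E) ∘ₗ (A : E →ₗ[ℝ] E) = LinearMap.id :=
      LinearMap.ext fun x => congrArg (fun T : E →L[ℝ] E => T x) h
    rw [← LinearMap.det_comp, h4, LinearMap.det_id]
  have h4 : |LinearMap.det (A' : E →ₗ[ℝ] E)| * |LinearMap.det (A : E →ₗ[ℝ] E)| = 1 := by
    rw [← abs_mul, h3, abs_one]
  rw [h2] at h1
  calc ‖A v‖ = |LinearMap.det (A : E →ₗ[ℝ] E)| * (|LinearMap.det (A' : E →ₗ[ℝ] E)| * ‖A v‖) := by
        rw [← mul_assoc, mul_comm |LinearMap.det (A : E →ₗ[ℝ] E)|, h4, one_mul]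
    _ ≤ |LinearMap.det (A : E →ₗ[ℝ] E)| * (‖A'‖ ^ m * ‖v‖) :=
        mul_le_mul_of_nonneg_left h1 (abs_nonneg _)
    _ = _ := by ring

end Vale.Agent.P207.H686
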