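import Mathlib.Analysis.ODE.ExistUnique
import Mathlib.Analysis.Calculus.MeanValue
import Mathlib.Analysis.SpecialFunctions.Log.Deriv
import Mathlib.Analysis.SpecialFunctions.Sqrt
import Mathlib.MeasureTheory.Integral.IntervalIntegral.FundThmCalculus
import Mathlib.Tactic

/-!
P207, theorem H, alternative (E), row (E1) (helper686): relative pinching for scalar Riccati
equations: if `p' = f - p ^ 2` and `P' = A * f - P ^ 2` then `∫ P ≤ √A * ∫ p + C`.
-/

open Set Filter Topology Metric MeasureTheory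
open scoped NNReal

noncomputable section

namespace Vale.Agent.P207.H686.Rel

/-- global existence for bounded Lipschitz time-dependent scalar fields -/
theorem exists_curve {v : ℝ → ℝ → ℝ} (hv : ∀ x, Continuous fun t => v t x) {K : ℝ≥0}
    (hK : ∀ t, LipschitzWith K (v t)) {L : ℝ} (hL : ∀ t x, ‖v t x‖ ≤ L) (x : ℝ) :
    ∃ γ : ℝ → ℝ, γ 0 = x ∧ ∀ t, HasDerivAt γ (v t (γ t)) t := by
  have hL0 : 0 ≤ L := (norm_nonneg _).trans (hL 0 x)
  have hloc : ∀ T : ℝ, 0 < T → ∃ α : ℝ → ℝ, α 0 = x ∧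
      ∀ t ∈ Ioo (-T) T, HasDerivAt α (v t (α t)) t := by
    intro T hT
    have h0 : (0 : ℝ) ∈ Icc (-T) T := ⟨by linarith, hT.le⟩
    have hpl : IsPicardLindelof v (tmin := -T) (tmax := T) ⟨0, h0⟩ x
        (Real.toNNReal (L * T)) 0 (Real.toNNReal L) K := by
      refine ⟨fun t _ => (hK t).lipschitzOnWith, fun y _ => (hv y).continuousOn,
        fun t _ y _ => ?_, ?_⟩
      · rw [Real.coe_toNNReal _ hL0]; exact hL t y
      · rw [Real.coe_toNNReal _ hL0, Real.coe_toNNReal _ (by positivity)]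
        simp
    obtain ⟨α, h1, h2⟩ := hpl.exists_eq_forall_mem_Icc_hasDerivWithinAt₀
    exact ⟨α, h1, fun t ht => (h2 t (Ioo_subset_Icc_self ht)).hasDerivAt (Icc_mem_nhds ht.1 ht.2)⟩
  choose! α hα0 hα using hloc
  have huniq : ∀ T T' : ℝ, 0 < T → T ≤ T' → EqOn (α T) (α T') (Ioo (-T) T) := by
    intro T T' hT hTT'
    refine ODE_solution_unique_of_mem_Ioo (v := v) (s := fun _ => univ) (K := K)
      (fun t _ => (hK t).lipschitzOnWith) (t₀ := 0) ⟨by linarith, hT⟩
      (fun t ht => ⟨hα T hT t ht, mem_univ _⟩)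
      (fun t ht => ⟨hα T' (by linarith) t ⟨by linarith [ht.1], by linarith [ht.2]⟩, mem_univ _⟩) ?_
    rw [hα0 T hT, hα0 T' (by linarith)]
  refine ⟨fun t => α (|t| + 1) t, ?_, fun t => ?_⟩
  · exact hα0 _ (by positivity)
  · have hT : 0 < |t| + 2 := by positivity
    have h1 : (fun s => α (|s| + 1) s) =ᶠ[𝓝 t] α (|t| + 2) := by
      have h2 : ∀ᶠ s in 𝓝 t, |s| < |t| + 1 :=
        (continuous_abs.tendsto t).eventually (Iio_mem_nhds (by linarith))
      filter_upwards [h2] with s hs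
      refine huniq (|s| + 1) (|t| + 2) (by positivity) (by linarith) ?_
      exact ⟨by linarith [neg_abs_le s], by linarith [le_abs_self s]⟩
    have h3 := hα (|t| + 2) hT t ⟨by linarith [neg_abs_le t], by linarith [le_abs_self t]⟩
    have h4 : α (|t| + 1) t = α (|t| + 2) t := h1.eq_of_nhds
    show HasDerivAt (fun s => α (|s| + 1) s) (v t (α (|t| + 1) t)) t
    rw [h4]
    exact h3.congr_of_eventuallyEq h1

/-- the clamp to `[0, M]` -/
def cl (M x : ℝ) : ℝ := max 0 (min x M)

theorem cl_nonneg (M x : ℝ) : 0 ≤ cl M x := le_max_left _ _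

theorem cl_le {M : ℝ} (hM : 0 ≤ M) (x : ℝ) : cl M x ≤ M := max_le hM (min_le_right _ _)

theorem cl_eq {M x : ℝ} (h0 : 0 ≤ x) (h1 : x ≤ M) : cl M x = x := by
  rw [cl, min_eq_left h1, max_eq_right h0]

theorem cl_lip (M x y : ℝ) : |cl M x - cl M y| ≤ |x - y| := by
  unfold cl
  refine (abs_max_sub_max_le_max _ _ _ _).trans ?_
  rw [sub_self, abs_zero]
  refine max_le (abs_nonneg _) ?_
  refine (abs_min_sub_min_le_max _ _ _ _).trans ?_
  rw [sub_self, abs_zero]
  exact max_le le_rfl (abs_nonneg _)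

/-- the scalar Riccati equation, forward in time, with uniform bounds -/
theorem ric_exists {a0 f0 f1 : ℝ} (ha : 0 < a0) (hf0 : 0 < f0) (hf1 : f0 ≤ f1) :
    ∃ m M : ℝ, 0 < m ∧ m ≤ M ∧ ∀ f : ℝ → ℝ, Continuous f → (∀ s, f0 ≤ f s) → (∀ s, f s ≤ f1) →
      ∃ p : ℝ → ℝ, Continuous p ∧ p 0 = a0 ∧ (∀ s, 0 ≤ s → HasDerivAt p (f s - p s ^ 2) s) ∧
        ∀ s, 0 ≤ s → m ≤ p s ∧ p s ≤ M := by
  have hm1 : 0 < min a0 (min 1 f0) / 2 := by
    have : 0 < min a0 (min 1 f0) := lt_min ha (lt_min one_pos hf0)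
    linarith
  set m := min a0 (min 1 f0) / 2 with hm
  set M := a0 + f1 + 1 with hM
  have hma : m < a0 := by
    have : min a0 (min 1 f0) ≤ a0 := min_le_left _ _
    linarith
  have hmone : m < 1 := by
    have : min a0 (min 1 f0) ≤ 1 := (min_le_right _ _).trans (min_le_left _ _)
    linarith
  have hmf : m < f0 := by
    have : min a0 (min 1 f0) ≤ f0 := (min_le_right _ _).trans (min_le_right _ _)
    linarith
  have hm2 : m ^ 2 < f0 := by nlinarith
  have hMa : a0 < M := by linarith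
  have hM0 : 0 < M := by linarith
  have hM2 : f1 < M ^ 2 := by nlinarith
  have hmM : m ≤ M := by linarith
  refine ⟨m, M, hm1, hmM, fun f hf hlo hhi => ?_⟩
  obtain ⟨p, hp0, hp⟩ := exists_curve (v := fun s x => f s - cl M x ^ 2)
    (fun x => hf.sub continuous_const) (K := Real.toNNReal (2 * M))
    (fun t => LipschitzWith.of_dist_le_mul fun x y => by
      rw [Real.coe_toNNReal _ (by positivity), Real.dist_eq, Real.dist_eq]
      have h1 : (f t - cl M x ^ 2) - (f t - cl M y ^ 2) = -((cl M x + cl M y) *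
          (cl M x - cl M y)) := by ring
      rw [h1, abs_neg, abs_mul]
      have h2 : |cl M x + cl M y| ≤ 2 * M := by
        rw [abs_of_nonneg (add_nonneg (cl_nonneg _ _) (cl_nonneg _ _))]
        linarith [cl_le hM0.le x, cl_le hM0.le y]
      exact mul_le_mul h2 (cl_lip M x y) (abs_nonneg _) (by positivity))
    (L := f1 + M ^ 2)
    (fun t x => by
      rw [Real.norm_eq_abs, abs_le]
      have h1 := cl_nonneg M x
      have h2 := cl_le hM0.le x
      have h3 := hlo t
      have h4 := hhi t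
      constructor <;> nlinarith) a0
  have hpc : Continuous p := continuous_iff_continuousAt.2 fun t => (hp t).continuousAt
  have hup : ∀ s, 0 ≤ s → p s ≤ M := by
    intro s hs
    refine image_le_of_deriv_right_lt_deriv_boundary' (a := 0) (b := s) (f := p)
      (f' := fun s => f s - cl M (p s) ^ 2) (B := fun _ => M) (B' := fun _ => 0)
      hpc.continuousOn (fun x _ => (hp x).hasDerivWithinAt) (by rw [hp0]; exact hMa.le)
      continuousOn_const (fun x _ => hasDerivWithinAt_const _ _ _) ?_ ⟨hs, le_rfl⟩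
    intro x _ hx
    have h1 : p x = M := hx
    show f x - cl M (p x) ^ 2 < 0
    rw [h1, cl_eq hM0.le le_rfl]
    linarith [hhi x]
  have hdn : ∀ s, 0 ≤ s → m ≤ p s := by
    intro s hs
    have := image_le_of_deriv_right_lt_deriv_boundary' (a := 0) (b := s) (f := fun s => -p s)
      (f' := fun s => -(f s - cl M (p s) ^ 2)) (B := fun _ => -m) (B' := fun _ => 0)
      hpc.neg.continuousOn (fun x _ => (hp x).neg.hasDerivWithinAt) (by
        show -p 0 ≤ -m
        rw [hp0]; linarith)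
      continuousOn_const (fun x _ => hasDerivWithinAt_const _ _ _) (by
        intro x _ hx
        have h1 : p x = m := by
          have : -p x = -m := hx
          linarith
        show -(f x - cl M (p x) ^ 2) < 0
        rw [h1, cl_eq hm1.le hmM]
        linarith [hlo x]) (x := s) ⟨hs, le_rfl⟩
    have h2 : -p s ≤ -m := this
    linarith
  refine ⟨p, hpc, hp0, fun s hs => ?_, fun s hs => ⟨hdn s hs, hup s hs⟩⟩
  have := hp s
  rwa [show cl M (p s) = p s from cl_eq (hm1.le.trans (hdn s hs)) (hup s hs)] at this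

/-- the key computation -/
theorem key_ineq {A h H D E : ℝ} (hA : 1 ≤ A) (hD : 0 < D) :
    Real.sqrt A / 2 * (E - Real.sqrt A * D) ≤
      ((E ^ 2 / 4 + H ^ 2 - A * (D ^ 2 / 4 + h ^ 2)) * D - (H - A * h) * (2 * h * D)) / D ^ 2 := by
  have hs : Real.sqrt A ^ 2 = A := Real.sq_sqrt (by linarith)
  set r := Real.sqrt A with hr
  rw [le_div_iff₀ (by positivity)]
  have h1 : (E ^ 2 / 4 + H ^ 2 - A * (D ^ 2 / 4 + h ^ 2)) * D - (H - A * h) * (2 * h * D) -
      r / 2 * (E - r * D) * D ^ 2 = D * ((E - r * D) ^ 2 / 4 + (H - h) ^ 2 + (A - 1) * h ^ 2) +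
        D ^ 3 / 4 * (r ^ 2 - A) := by ring
  have h2 : 0 ≤ D * ((E - r * D) ^ 2 / 4 + (H - h) ^ 2 + (A - 1) * h ^ 2) := by
    have : 0 ≤ A - 1 := by linarith
    positivity
  rw [hs, sub_self, mul_zero, add_zero] at h1
  linarith

/-- **Relative pinching** for scalar Riccati equations. -/
theorem rel_int {a0 b0 f0 f1 A : ℝ} (ha : 0 < a0) (hb : 0 < b0) (hf0 : 0 < f0) (hf1 : f0 ≤ f1)
    (hA : 1 ≤ A) : ∃ C : ℝ, ∀ f : ℝ → ℝ, Continuous f → (∀ s, f0 ≤ f s) → (∀ s, f s ≤ f1) →
      ∃ p P : ℝ → ℝ, Continuous p ∧ Continuous P ∧ p 0 = a0 ∧ P 0 = b0 ∧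
        (∀ s, 0 ≤ s → HasDerivAt p (f s - p s ^ 2) s) ∧
        (∀ s, 0 ≤ s → HasDerivAt P (A * f s - P s ^ 2) s) ∧
        (∀ s, 0 ≤ s → 0 < p s) ∧ (∀ s, 0 ≤ s → 0 < P s) ∧
        ∀ t, 0 ≤ t → ∫ s in (0 : ℝ)..t, P s ≤ Real.sqrt A * (∫ s in (0 : ℝ)..t, p s) + C := by
  have hA0 : 0 < A := by linarith
  obtain ⟨m, M, hm, hmM, hp⟩ := ric_exists ha hf0 hf1
  obtain ⟨m', M', hm', hmM', hP⟩ := ric_exists hb (mul_pos hA0 hf0)
    (mul_le_mul_of_nonneg_left hf1 hA0.le)
  obtain ⟨n, N, hn, hnN, hq⟩ := ric_exists one_pos hf0 hf1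
  obtain ⟨n', N', hn', hnN', hQ⟩ := ric_exists one_pos (mul_pos hA0 hf0)
    (mul_le_mul_of_nonneg_left hf1 hA0.le)
  set r := Real.sqrt A with hr
  have hr0 : 0 < r := Real.sqrt_pos.2 hA0
  have hr2 : r ^ 2 = A := Real.sq_sqrt hA0.le
  refine ⟨(M' + N' + A * (M + N)) / (m + n) / r + (Real.log (M' + N') - Real.log (m' + n')) / 2 +
    r / 2 * (Real.log (M + N) - Real.log (m + n)), fun f hf hlo hhi => ?_⟩
  have hAf : Continuous fun s => A * f s := continuous_const.mul hf
  obtain ⟨p, hpc, hp0, hpd, hpb⟩ := hp f hf hlo hhi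
  obtain ⟨P, hPc, hP0, hPd, hPb⟩ := hP (fun s => A * f s) hAf
    (fun s => mul_le_mul_of_nonneg_left (hlo s) hA0.le)
    (fun s => mul_le_mul_of_nonneg_left (hhi s) hA0.le)
  refine ⟨p, P, hpc, hPc, hp0, hP0, hpd, hPd, fun s hs => hm.trans_le (hpb s hs).1,
    fun s hs => hm'.trans_le (hPb s hs).1, fun t ht => ?_⟩
  obtain ⟨q', hqc, -, hqd, hqb⟩ := hq (fun s => f (t - s)) (by fun_prop)
    (fun s => hlo _) (fun s => hhi _)
  obtain ⟨Q', hQc, -, hQd, hQb⟩ := hQ (fun s => A * f (t - s)) (by fun_prop)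
    (fun s => mul_le_mul_of_nonneg_left (hlo _) hA0.le)
    (fun s => mul_le_mul_of_nonneg_left (hhi _) hA0.le)
  -- the backward solutions
  obtain ⟨q, hqdef⟩ : ∃ q : ℝ → ℝ, q = fun s => q' (t - s) := ⟨_, rfl⟩
  obtain ⟨Q, hQdef⟩ : ∃ Q : ℝ → ℝ, Q = fun s => Q' (t - s) := ⟨_, rfl⟩
  have hqd' : ∀ s, s ≤ t → HasDerivAt q (q s ^ 2 - f s) s := by
    intro s hs
    have h1 := hqd (t - s) (by linarith)
    have h2 : HasDerivAt (fun s : ℝ => t - s) (-1) s := by
      simpa using (hasDerivAt_id s).const_sub t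
    have h3 := h1.comp s h2
    rw [hqdef]
    have h4 : (f (t - (t - s)) - q' (t - s) ^ 2) * -1 = q' (t - s) ^ 2 - f s := by
      rw [sub_sub_cancel]; ring
    rw [h4] at h3
    exact h3
  have hQd' : ∀ s, s ≤ t → HasDerivAt Q (Q s ^ 2 - A * f s) s := by
    intro s hs
    have h1 := hQd (t - s) (by linarith)
    have h2 : HasDerivAt (fun s : ℝ => t - s) (-1) s := by
      simpa using (hasDerivAt_id s).const_sub t
    have h3 := h1.comp s h2
    rw [hQdef]
    have h4 : (A * f (t - (t - s)) - Q' (t - s) ^ 2) * -1 = Q' (t - s) ^ 2 - A * f s := by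
      rw [sub_sub_cancel]; ring
    rw [h4] at h3
    exact h3
  have hqb' : ∀ s, s ≤ t → n ≤ q s ∧ q s ≤ N := by
    intro s hs
    rw [hqdef]
    exact hqb (t - s) (by linarith)
  have hQb' : ∀ s, s ≤ t → n' ≤ Q s ∧ Q s ≤ N' := by
    intro s hs
    rw [hQdef]
    exact hQb (t - s) (by linarith)
  -- the function whose derivative dominates `P - r * p`
  have hΨ : ∀ s ∈ Icc 0 t, HasDerivAt (fun s => ((Q s - P s) / 2 - A * ((q s - p s) / 2)) /
      (p s + q s) / r - Real.log (P s + Q s) / 2 + r / 2 * Real.log (p s + q s))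
      ((((P s ^ 2 + Q s ^ 2) / 2 - A * ((p s ^ 2 + q s ^ 2) / 2)) * (p s + q s) -
        ((Q s - P s) / 2 - A * ((q s - p s) / 2)) * ((q s - p s) * (p s + q s))) /
          (p s + q s) ^ 2 / r - (Q s - P s) / 2 + r / 2 * (q s - p s)) s := by
    intro s hs
    have hp1 := hpd s hs.1
    have hP1 := hPd s hs.1
    have hq1 := hqd' s hs.2
    have hQ1 := hQd' s hs.2
    have hD : 0 < p s + q s := by linarith [(hpb s hs.1).1, (hqb' s hs.2).1]
    have hE : 0 < P s + Q s := by linarith [(hPb s hs.1).1, (hQb' s hs.2).1]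
    have h1 := ((((hQ1.sub hP1).div_const 2).sub (((hq1.sub hp1).div_const 2).const_mul A)).div
      (hp1.add hq1) hD.ne').div_const r
    have h2 := ((hP1.add hQ1).log hE.ne').div_const 2
    have h3 := ((hp1.add hq1).log hD.ne').const_mul (r / 2)
    have h4 := (h1.sub h2).add h3
    refine h4.congr_deriv ?_
    have e2 : (A * f s - P s ^ 2 + (Q s ^ 2 - A * f s)) / (P s + Q s) / 2 = (Q s - P s) / 2 := by
      rw [show A * f s - P s ^ 2 + (Q s ^ 2 - A * f s) = (Q s - P s) * (P s + Q s) by ring,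
        mul_div_assoc, div_self hE.ne', mul_one]
    have e3 : (f s - p s ^ 2 + (q s ^ 2 - f s)) / (p s + q s) = q s - p s := by
      rw [show f s - p s ^ 2 + (q s ^ 2 - f s) = (q s - p s) * (p s + q s) by ring,
        mul_div_assoc, div_self hD.ne', mul_one]
    simp only [Pi.add_apply, Pi.sub_apply]
    rw [e2, e3]
    congr 3
    ring
  have hint := intervalIntegral.integral_le_sub_of_hasDeriv_right_of_le (a := 0) (b := t)
    (φ := fun s => P s - r * p s) ht
    (fun s hs => (hΨ s hs).continuousAt.continuousWithinAt)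
    (fun s hs => (hΨ s (Ioo_subset_Icc_self hs)).hasDerivWithinAt)
    ((hPc.sub (continuous_const.mul hpc)).continuousOn.integrableOn_Icc) (by
      intro s hs'
      have hs := Ioo_subset_Icc_self hs'
      have hD : 0 < p s + q s := by linarith [(hpb s hs.1).1, (hqb' s hs.2).1]
      have hk := key_ineq (h := (q s - p s) / 2) (H := (Q s - P s) / 2) (D := p s + q s)
        (E := P s + Q s) hA hD
      have e1 : ((P s + Q s) ^ 2 / 4 + ((Q s - P s) / 2) ^ 2 -
          A * ((p s + q s) ^ 2 / 4 + ((q s - p s) / 2) ^ 2)) * (p s + q s) -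
          ((Q s - P s) / 2 - A * ((q s - p s) / 2)) * (2 * ((q s - p s) / 2) * (p s + q s)) =
          ((P s ^ 2 + Q s ^ 2) / 2 - A * ((p s ^ 2 + q s ^ 2) / 2)) * (p s + q s) -
        ((Q s - P s) / 2 - A * ((q s - p s) / 2)) * ((q s - p s) * (p s + q s)) := by ring
      rw [e1, ← hr] at hk
      have hk' := div_le_div_of_nonneg_right hk hr0.le
      have e4 : r / 2 * (P s + Q s - r * (p s + q s)) / r = (P s + Q s - r * (p s + q s)) / 2 := by
        field_simp
      rw [e4] at hk'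
      show P s - r * p s ≤ _
      linarith)
  have hsub : ∫ s in (0 : ℝ)..t, (P s - r * p s) =
      (∫ s in (0 : ℝ)..t, P s) - r * ∫ s in (0 : ℝ)..t, p s := by
    have hi2 : IntervalIntegrable (fun s => r * p s) volume 0 t :=
      (continuous_const.mul hpc).intervalIntegrable _ _
    rw [intervalIntegral.integral_sub (hPc.intervalIntegrable _ _) hi2,
      intervalIntegral.integral_const_mul]
  rw [hsub] at hint
  -- bounds of the primitive
  have hb1 : ∀ s ∈ Icc 0 t, |((Q s - P s) / 2 - A * ((q s - p s) / 2)) / (p s + q s) / r| ≤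
      (M' + N' + A * (M + N)) / (m + n) / r / 2 := by
    intro s hs
    have h1 := hpb s hs.1
    have h2 := hPb s hs.1
    have h3 := hqb' s hs.2
    have h4 := hQb' s hs.2
    have hD : 0 < p s + q s := by linarith
    rw [abs_div, abs_div, abs_of_pos hD, abs_of_pos hr0]
    have h5 : |(Q s - P s) / 2 - A * ((q s - p s) / 2)| ≤ (M' + N' + A * (M + N)) / 2 := by
      rw [abs_le]
      constructor
      · have : A * (q s - p s) ≤ A * (M + N) := mul_le_mul_of_nonneg_left (by linarith) hA0.le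
        linarith
      · have : -(A * (M + N)) ≤ A * (q s - p s) := by
          have : A * (-(M + N)) ≤ A * (q s - p s) :=
            mul_le_mul_of_nonneg_left (by linarith) hA0.le
          linarith
        linarith
    have h6 : (M' + N' + A * (M + N)) / (m + n) / r / 2 =
        (M' + N' + A * (M + N)) / 2 / (m + n) / r := by ring
    rw [h6]
    refine div_le_div_of_nonneg_right ?_ hr0.le
    exact div_le_div₀ (by
      have : 0 ≤ A * (M + N) := by
        have : 0 ≤ M + N := by linarith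
        positivity
      linarith) h5 (by linarith) (by linarith)
  have hb2 : ∀ s ∈ Icc 0 t, Real.log (m' + n') ≤ Real.log (P s + Q s) ∧
      Real.log (P s + Q s) ≤ Real.log (M' + N') := by
    intro s hs
    have h2 := hPb s hs.1
    have h4 := hQb' s hs.2
    exact ⟨Real.log_le_log (by linarith) (by linarith), Real.log_le_log (by linarith) (by linarith)⟩
  have hb3 : ∀ s ∈ Icc 0 t, Real.log (m + n) ≤ Real.log (p s + q s) ∧
      Real.log (p s + q s) ≤ Real.log (M + N) := by
    intro s hs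
    have h2 := hpb s hs.1
    have h4 := hqb' s hs.2
    exact ⟨Real.log_le_log (by linarith) (by linarith), Real.log_le_log (by linarith) (by linarith)⟩
  have t0 : (0 : ℝ) ∈ Icc 0 t := ⟨le_rfl, ht⟩
  have tt : t ∈ Icc 0 t := ⟨ht, le_rfl⟩
  have c1 := abs_le.1 (hb1 0 t0)
  have c2 := abs_le.1 (hb1 t tt)
  have c3 := hb2 0 t0
  have c4 := hb2 t tt
  have c5 := hb3 0 t0
  have c6 := hb3 t tt
  have c7 : r / 2 * Real.log (p t + q t) ≤ r / 2 * Real.log (M + N) :=
    mul_le_mul_of_nonneg_left c6.2 (by linarith)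
  have c8 : r / 2 * Real.log (m + n) ≤ r / 2 * Real.log (p 0 + q 0) :=
    mul_le_mul_of_nonneg_left c5.1 (by linarith)
  have c9 : r / 2 * (Real.log (M + N) - Real.log (m + n)) =
      r / 2 * Real.log (M + N) - r / 2 * Real.log (m + n) := by ring
  linarith [c1.1, c2.2, c3.2, c4.1]

end Vale.Agent.P207.H686.Rel
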