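import Vale.Agent.P207.H535.Interp
import Vale.Agent.P207.N3.H828.CK2

/-!
# P207, line N4, row S-BUNDLE: analysis lemmas

Taylor polynomials, composition with affine maps, bounds of all derivatives from the sup bound and
the high derivatives, smooth limits, limits of subspaces.
-/

set_option linter.all false

open Metric Set Filter Topology
open scoped ContDiff Nat

namespace Vale.Agent.P207.H686

open Vale.Agent.P207.H535 Vale.Agent.P207.N3.H828

variable {E F G : Type*} [NormedAddCommGroup E] [NormedSpace ℝ E]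
  [NormedAddCommGroup F] [NormedSpace ℝ F] [NormedAddCommGroup G] [NormedSpace ℝ G]

/-- high derivatives of a homogeneous polynomial vanish -/
theorem diag_zero {n : ℕ} (p : E [×n]→L[ℝ] F) {j : ℕ} (hj : n < j) (x : E) :
    iteratedFDeriv ℝ j (fun x => p (fun _ => x)) x = 0 := by
  obtain ⟨m, rfl⟩ : ∃ m, j = n + (m + 1) := ⟨j - n - 1, by omega⟩
  have h1 : iteratedFDeriv ℝ n (fun x => p (fun _ => x)) =
      fun _ => iteratedFDeriv ℝ n (fun x => p (fun _ => x)) 0 := by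
    funext y
    ext v
    rw [p.iteratedFDeriv_comp_diagonal, p.iteratedFDeriv_comp_diagonal]
  have h2 : ‖iteratedFDeriv ℝ (n + (m + 1)) (fun x => p (fun _ => x)) x‖ = 0 := by
    rw [← norm_iter_iter, h1, iteratedFDeriv_succ_const]
    simp
  exact norm_eq_zero.1 h2

/-- the Taylor polynomial of degree less than `k` at `0` -/
noncomputable def tay (k : ℕ) (f : E → F) (y : E) : F :=
  ∑ i ∈ Finset.range k, ((i ! : ℝ)⁻¹) • iteratedFDeriv ℝ i f 0 (fun _ => y)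

theorem diag_smooth {n : ℕ} (p : E [×n]→L[ℝ] F) : ContDiff ℝ ∞ (fun x : E => p (fun _ => x)) := by
  have h1 : ContDiff ℝ ∞ (fun x : E => (fun _ : Fin n => x)) := contDiff_pi.2 fun _ => contDiff_id
  exact p.contDiff.comp h1

theorem tay_smooth (k : ℕ) (f : E → F) : ContDiff ℝ ∞ (tay k f) := by
  unfold tay
  refine ContDiff.sum fun i _ => ?_
  exact (diag_smooth _).const_smul _

theorem tay_zero (k : ℕ) (f : E → F) {j : ℕ} (hj : k ≤ j) (x : E) :
    iteratedFDeriv ℝ j (tay k f) x = 0 := by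
  unfold tay
  have h1 : iteratedFDeriv ℝ j (fun y => ∑ i ∈ Finset.range k,
      ((i ! : ℝ)⁻¹) • iteratedFDeriv ℝ i f 0 (fun _ => y)) x =
      ∑ i ∈ Finset.range k, iteratedFDeriv ℝ j
        (fun y => ((i ! : ℝ)⁻¹) • iteratedFDeriv ℝ i f 0 (fun _ => y)) x := by
    have h2 := iteratedFDeriv_sum (𝕜 := ℝ) (i := j) (u := Finset.range k)
      (f := fun i (y : E) => ((i ! : ℝ)⁻¹) • iteratedFDeriv ℝ i f 0 (fun _ => y))
      (fun i _ => ((diag_smooth (iteratedFDeriv ℝ i f 0)).const_smul _).of_le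
        (by exact_mod_cast (le_top : (j : ℕ∞) ≤ ⊤)))
    rw [h2, Finset.sum_apply]
  rw [h1]
  refine Finset.sum_eq_zero fun i hi => ?_
  have h3 : iteratedFDeriv ℝ j
        (fun y => ((i ! : ℝ)⁻¹) • iteratedFDeriv ℝ i f 0 (fun _ => y)) x =
      ((i ! : ℝ)⁻¹) • iteratedFDeriv ℝ j (fun y => iteratedFDeriv ℝ i f 0 (fun _ => y)) x := by
    have h4 := iteratedFDeriv_const_smul_apply (𝕜 := ℝ) (i := j) (a := ((i ! : ℝ)⁻¹))
      (f := fun y : E => iteratedFDeriv ℝ i f 0 (fun _ => y)) (x := x)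
      ((diag_smooth (iteratedFDeriv ℝ i f 0)).contDiffAt.of_le
        (by exact_mod_cast (le_top : (j : ℕ∞) ≤ ⊤)))
    exact h4
  rw [h3, diag_zero _ (by have := Finset.mem_range.1 hi; omega), smul_zero]

theorem tay_err [CompleteSpace F] {k : ℕ} (hk : 1 ≤ k) {f : E → F}
    (hf : ContDiffOn ℝ ∞ f (ball 0 1)) {ε : ℝ}
    (h : ∀ x ∈ ball (0 : E) 1, ‖iteratedFDeriv ℝ k f x‖ ≤ ε) :
    ∀ x ∈ ball (0 : E) 1, ‖f x - tay k f x‖ ≤ ε := by
  intro x hx
  obtain ⟨n, rfl⟩ : ∃ n, k = n + 1 := ⟨k - 1, by omega⟩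
  have hx1 : ‖x‖ < 1 := by simpa using hx
  have hmem : ∀ t ∈ Icc (0 : ℝ) 1, (0 : E) + t • x ∈ ball (0 : E) 1 := by
    intro t ht
    rw [zero_add, mem_ball_zero_iff, norm_smul, Real.norm_eq_abs, abs_of_nonneg ht.1]
    nlinarith [norm_nonneg x, ht.1, ht.2]
  have h0 : 0 ≤ ε := le_trans (norm_nonneg _) (h x hx)
  have h1 := map_add_eq_sum_add_integral_iteratedFDeriv (f := f) (x := 0) (y := x) (n := n)
    (fun t ht => (hf.contDiffAt (isOpen_ball.mem_nhds (hmem t ht))).of_le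
      (by exact_mod_cast (le_top : ((n + 1 : ℕ) : ℕ∞) ≤ ⊤)))
  rw [zero_add] at h1
  have h2 : f x - tay (n + 1) f x = (n ! : ℝ)⁻¹ • ∫ t in (0 : ℝ)..1,
      (1 - t) ^ n • iteratedFDeriv ℝ (n + 1) f (0 + t • x) (fun _ ↦ x) := by
    rw [h1]; simp [tay]
  rw [h2, norm_smul]
  have h3 : ‖∫ t in (0 : ℝ)..1, (1 - t) ^ n • iteratedFDeriv ℝ (n + 1) f (0 + t • x) (fun _ ↦ x)‖
      ≤ ε * |1 - 0| := by
    refine intervalIntegral.norm_integral_le_of_norm_le_const fun t ht => ?_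
    rw [uIoc_of_le zero_le_one] at ht
    have ht' : t ∈ Icc (0 : ℝ) 1 := ⟨ht.1.le, ht.2⟩
    rw [norm_smul]
    have h4 : ‖(1 - t) ^ n‖ ≤ 1 := by
      rw [norm_pow, Real.norm_eq_abs, abs_of_nonneg (by linarith [ht.2])]
      exact pow_le_one₀ (by linarith [ht.2]) (by linarith [ht.1])
    have h5 : ‖iteratedFDeriv ℝ (n + 1) f (0 + t • x) (fun _ ↦ x)‖ ≤ ε := by
      refine (ContinuousMultilinearMap.le_opNorm _ _).trans ?_
      rw [Finset.prod_const]
      have h6 : ‖x‖ ^ (Finset.univ : Finset (Fin (n + 1))).card ≤ 1 :=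
        pow_le_one₀ (norm_nonneg _) hx1.le
      calc _ ≤ ε * 1 := mul_le_mul (h _ (hmem t ht')) h6 (by positivity) h0
        _ = ε := mul_one _
    calc _ ≤ 1 * ε := mul_le_mul h4 h5 (norm_nonneg _) zero_le_one
      _ = ε := one_mul _
  have h7 : ‖((n ! : ℝ)⁻¹)‖ ≤ 1 := by
    rw [norm_inv, Real.norm_natCast]
    refine inv_le_one_of_one_le₀ ?_
    exact_mod_cast Nat.one_le_iff_ne_zero.2 (Nat.factorial_ne_zero n)
  calc _ ≤ 1 * (ε * |1 - 0|) := mul_le_mul h7 h3 (norm_nonneg _) zero_le_one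
    _ = ε := by norm_num

/-- composition with an affine map on the right and a linear map on the left -/
theorem comp_bound {f : E → F} {U : Set E} (hU : IsOpen U) (hf : ContDiffOn ℝ ∞ f U)
    (Φ : F →L[ℝ] G) (B : E →L[ℝ] E) (p : E) (k : ℕ) {x : E} (hx : p + B x ∈ U) :
    ‖iteratedFDeriv ℝ k (fun x => Φ (f (p + B x))) x‖ ≤
      ‖Φ‖ * (‖iteratedFDeriv ℝ k f (p + B x)‖ * ‖B‖ ^ k) := by
  have hk : ((k : ℕ) : WithTop ℕ∞) ≤ ∞ := by exact_mod_cast (le_top : (k : ℕ∞) ≤ ⊤)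
  let f' : E → F := fun y => f (p + y)
  let U' : Set E := (fun y => p + y) ⁻¹' U
  have hU' : IsOpen U' := hU.preimage (by fun_prop)
  have hf' : ContDiffOn ℝ ∞ f' U' := by
    refine hf.comp (contDiff_const.add contDiff_id).contDiffOn ?_
    intro y hy; exact hy
  have hV : IsOpen (B ⁻¹' U') := hU'.preimage B.continuous
  have hpV : ContDiffOn ℝ ∞ (f' ∘ B) (B ⁻¹' U') := hf'.comp B.contDiff.contDiffOn (fun s hs => hs)
  have hxV : x ∈ B ⁻¹' U' := hx
  have h0 : (fun x => Φ (f (p + B x))) = Φ ∘ (f' ∘ B) := rfl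
  rw [h0, Φ.iteratedFDeriv_comp_left (hpV.contDiffAt (hV.mem_nhds hxV)) hk]
  refine (ContinuousLinearMap.norm_compContinuousMultilinearMap_le _ _).trans ?_
  refine mul_le_mul_of_nonneg_left ?_ (norm_nonneg _)
  have h1 : iteratedFDeriv ℝ k (f' ∘ B) x = iteratedFDerivWithin ℝ k (f' ∘ B) (B ⁻¹' U') x :=
    (iteratedFDerivWithin_of_isOpen k hV hxV).symm
  rw [h1, B.iteratedFDerivWithin_comp_right hf' hU'.uniqueDiffOn hV.uniqueDiffOn hxV hk]
  refine (ContinuousMultilinearMap.norm_compContinuousLinearMap_le _ _).trans ?_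
  rw [iteratedFDerivWithin_of_isOpen k hU' hxV]
  have h2 : iteratedFDeriv ℝ k f' (B x) = iteratedFDeriv ℝ k f (p + B x) :=
    iteratedFDeriv_comp_add_left k p (B x)
  rw [h2, Finset.prod_const]
  simp

theorem comp_smooth {f : E → F} {U : Set E} (hf : ContDiffOn ℝ ∞ f U)
    (Φ : F →L[ℝ] G) (B : E →L[ℝ] E) (p : E) {V : Set E} (hV : ∀ x ∈ V, p + B x ∈ U) :
    ContDiffOn ℝ ∞ (fun x => Φ (f (p + B x))) V := by
  have h1 : ContDiffOn ℝ ∞ (fun x => f (p + B x)) V :=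
    hf.comp (contDiff_const.add B.contDiff).contDiffOn hV
  exact Φ.contDiff.comp_contDiffOn h1

/-- the derivative of order `j` on smaller balls -/
theorem all_bounds_small (k0 : ℕ) (hk0 : 1 ≤ k0) (M : ℕ → ℝ) (C0 : ℝ) (j : ℕ) :
    ∀ r < (1 : ℝ), ∃ C : ℝ, 0 ≤ C ∧ ∀ f : E → F, ContDiffOn ℝ ∞ f (ball 0 1) →
      (∀ x ∈ ball (0 : E) 1, ‖f x‖ ≤ C0) →
      (∀ k ≥ k0, ∀ x ∈ ball (0 : E) 1, ‖iteratedFDeriv ℝ k f x‖ ≤ M k) →
      ∀ x ∈ ball (0 : E) r, ‖iteratedFDeriv ℝ j f x‖ ≤ C := by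
  induction j with
  | zero =>
    intro r hr
    refine ⟨|C0|, abs_nonneg _, fun f _ h _ x hx => ?_⟩
    rw [norm_iteratedFDeriv_zero]
    exact (h x (ball_subset_ball hr.le hx)).trans (le_abs_self _)
  | succ j ih =>
    intro r hr
    set r' : ℝ := (r + 1) / 2 with hr'
    have hr'1 : r' < 1 := by rw [hr']; linarith
    obtain ⟨C', hC'0, hC'⟩ := ih r' hr'1
    set h : ℝ := (r' - r) / 2 with hh
    have hh0 : 0 < h := by rw [hh, hr']; linarith
    set M' : ℝ := |M (j + k0)| with hM'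
    refine ⟨cI k0 * (C' / h + M' * h ^ (k0 - 1)), ?_, ?_⟩
    · have := (cI_pos k0).le
      positivity
    intro f hf hb hM y hy
    have hG : ContDiffOn ℝ k0 (iteratedFDeriv ℝ j f) (ball 0 1) :=
      contDiffOn_iter isOpen_ball hf j k0
    have hsub : closedBall y h ⊆ ball 0 r' := by
      intro z hz
      rw [mem_closedBall] at hz
      rw [mem_ball] at hy ⊢
      calc dist z 0 ≤ dist z y + dist y 0 := dist_triangle _ _ _
        _ < h + r := by linarith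
        _ ≤ r' := by rw [hh, hr']; linarith
    have hstep := fderiv_bound hk0 (isOpen_ball (x := (0 : E)) (ε := 1)) hh0
      (hsub.trans (ball_subset_ball hr'1.le)) hG
      (ρ := C') (M := M') (fun z hz => hC' f hf hb hM z (hsub hz))
      (fun z hz => by
        rw [norm_iter_iter]
        exact (hM _ (by omega) z (ball_subset_ball hr'1.le (hsub hz))).trans (le_abs_self _))
    rw [norm_fderiv_iteratedFDeriv] at hstep
    exact hstep

/-- bounds for all derivatives on the whole ball -/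
theorem all_bounds (k0 : ℕ) (hk0 : 1 ≤ k0) (M : ℕ → ℝ) (C0 : ℝ) :
    ∃ C : ℕ → ℝ, (∀ k, 0 ≤ C k) ∧ ∀ f : E → F, ContDiffOn ℝ ∞ f (ball 0 1) →
      (∀ x ∈ ball (0 : E) 1, ‖f x‖ ≤ C0) →
      (∀ k ≥ k0, ∀ x ∈ ball (0 : E) 1, ‖iteratedFDeriv ℝ k f x‖ ≤ M k) →
      ∀ k, ∀ x ∈ ball (0 : E) 1, ‖iteratedFDeriv ℝ k f x‖ ≤ C k := by
  have key : ∀ m : ℕ, ∀ k : ℕ, k0 ≤ k + m → ∃ C : ℝ, 0 ≤ C ∧ ∀ f : E → F,
      ContDiffOn ℝ ∞ f (ball 0 1) → (∀ x ∈ ball (0 : E) 1, ‖f x‖ ≤ C0) →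
      (∀ k ≥ k0, ∀ x ∈ ball (0 : E) 1, ‖iteratedFDeriv ℝ k f x‖ ≤ M k) →
      ∀ x ∈ ball (0 : E) 1, ‖iteratedFDeriv ℝ k f x‖ ≤ C := by
    intro m
    induction m with
    | zero =>
      intro k hk
      exact ⟨|M k|, abs_nonneg _, fun f _ _ h x hx => (h k hk x hx).trans (le_abs_self _)⟩
    | succ m ih =>
      intro k hk
      obtain ⟨C1, hC10, hC1⟩ := ih (k + 1) (by omega)
      obtain ⟨C2, hC20, hC2⟩ := all_bounds_small (E := E) (F := F) k0 hk0 M C0 k (1 / 2)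
        (by norm_num)
      refine ⟨C2 + C1, by positivity, fun f hf hb hM x hx => ?_⟩
      have hx1 : ‖x‖ < 1 := by simpa using hx
      have h1 : ‖iteratedFDeriv ℝ k f x - iteratedFDeriv ℝ k f 0‖ ≤ C1 * ‖x - 0‖ := by
        refine Convex.norm_image_sub_le_of_norm_fderiv_le (𝕜 := ℝ) (s := ball (0 : E) 1)
          (fun y hy => ?_) (fun y hy => ?_) (convex_ball _ _) (by simp) hx
        · exact ((contDiffOn_iter isOpen_ball hf k 1).contDiffAt
            (isOpen_ball.mem_nhds hy)).differentiableAt (by simp)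
        · rw [norm_fderiv_iteratedFDeriv]
          exact hC1 f hf hb hM y hy
      have h2 := hC2 f hf hb hM 0 (by simp)
      rw [sub_zero] at h1
      calc ‖iteratedFDeriv ℝ k f x‖ = ‖iteratedFDeriv ℝ k f 0 +
            (iteratedFDeriv ℝ k f x - iteratedFDeriv ℝ k f 0)‖ := by
            congr 1; abel
        _ ≤ C2 + C1 * ‖x‖ := (norm_add_le _ _).trans (add_le_add h2 h1)
        _ ≤ C2 + C1 := by nlinarith
  have h2 := fun k => key k0 k (by omega)
  choose C hC0 hC using h2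
  exact ⟨C, hC0, fun f hf hb hM k x hx => hC k f hf hb hM x hx⟩

/-- smooth limits -/
theorem lim_smooth [FiniteDimensional ℝ E] [FiniteDimensional ℝ F] {M : ℕ → ℝ} {S : Set E}
    (hS : IsOpen S) (hc : Convex ℝ S) (hb : Bornology.IsBounded S) {f : ℕ → E → F} {g : E → F}
    (hf : ∀ n, ContDiffOn ℝ ∞ (f n) S)
    (hM : ∀ n k, ∀ x ∈ S, ‖iteratedFDeriv ℝ k (f n) x‖ ≤ M k)
    (hlim : ∀ x ∈ S, Tendsto (fun n => f n x) atTop (𝓝 (g x))) :
    ContDiffOn ℝ ∞ g S ∧ ∀ k, ∀ x ∈ S, ‖iteratedFDeriv ℝ k g x‖ ≤ M k := by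
  obtain ⟨ph, hph, G', hG, hconv⟩ := ck_subseq_top hS hc hb (F := f) (M := M)
    (fun k n => ⟨(hf n).of_le (by exact_mod_cast (le_top : (k : ℕ∞) ≤ ⊤)),
      fun j _ u hu => hM n j u hu⟩)
  have heq : EqOn g G' S := by
    intro x hx
    have h1 := (hlim x hx).comp hph.tendsto_atTop
    have h2 := (hconv 0).tendsto_at hx
    have h3 : Tendsto (fun n => f (ph n) x) atTop (𝓝 (G' x)) := by
      have h4 : Continuous fun q : E [×0]→L[ℝ] F => q (fun _ => (0 : E)) := by fun_prop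
      have h5 := (h4.tendsto _).comp h2
      simpa [Function.comp_def, iteratedFDeriv_zero_apply] using h5
    exact tendsto_nhds_unique h1 h3
  refine ⟨?_, fun k x hx => ?_⟩
  · refine ContDiffOn.congr ?_ heq
    exact contDiffOn_infty.2 fun k => (hG k).1
  · have h1 : g =ᶠ[𝓝 x] G' := by
      filter_upwards [hS.mem_nhds hx] with y hy using heq hy
    rw [(h1.iteratedFDeriv ℝ k).eq_of_nhds]
    exact (hG k).2 k le_rfl x hx

/-- limits of functions with bounded high derivatives -/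
theorem lim_fin [FiniteDimensional ℝ E] [FiniteDimensional ℝ F] (k0 : ℕ) (hk0 : 1 ≤ k0)
    (M : ℕ → ℝ) (C0 : ℝ) :
    ∃ C : ℕ → ℝ, (∀ k, 0 ≤ C k) ∧ ∀ (f : ℕ → E → F) (g : E → F),
      (∀ n, ContDiffOn ℝ ∞ (f n) (ball 0 1)) →
      (∀ n, ∀ x ∈ ball (0 : E) 1, ‖f n x‖ ≤ C0) →
      (∀ n, ∀ k ≥ k0, ∀ x ∈ ball (0 : E) 1, ‖iteratedFDeriv ℝ k (f n) x‖ ≤ M k) →
      (∀ x ∈ ball (0 : E) 1, Tendsto (fun n => f n x) atTop (𝓝 (g x))) →
      ContDiffOn ℝ ∞ g (ball 0 1) ∧ ∀ k, ∀ x ∈ ball (0 : E) 1, ‖iteratedFDeriv ℝ k g x‖ ≤ C k := by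
  obtain ⟨C, hC0, hC⟩ := all_bounds (E := E) (F := F) k0 hk0 M C0
  refine ⟨C, hC0, fun f g hf hb hM hlim => ?_⟩
  exact lim_smooth isOpen_ball (convex_ball _ _) isBounded_ball hf
    (fun n k x hx => hC (f n) (hf n) (hb n) (hM n) k x hx) hlim

/-- limits of subspaces of fixed dimension in Euclidean space -/
theorem grass_euc {m : ℕ} (V : ℕ → Submodule ℝ (EuclideanSpace ℝ (Fin m))) (d : ℕ)
    (hV : ∀ i, Module.finrank ℝ (V i) = d) :
    ∃ ψ : ℕ → ℕ, StrictMono ψ ∧ ∃ V' : Submodule ℝ (EuclideanSpace ℝ (Fin m)),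
      Module.finrank ℝ V' = d ∧ ∀ t ∈ V', ∃ s : ℕ → EuclideanSpace ℝ (Fin m),
        (∀ i, s i ∈ V (ψ i)) ∧ Tendsto s atTop (𝓝 t) := by
  let b : ℕ → (Fin d → EuclideanSpace ℝ (Fin m)) := fun i a =>
    ((stdOrthonormalBasis ℝ (V i)).reindex (finCongr (hV i)) a : EuclideanSpace ℝ (Fin m))
  have hbV : ∀ i a, b i a ∈ V i := fun i a => Submodule.coe_mem _
  have hbo : ∀ i, Orthonormal ℝ (b i) := by
    intro i
    have h1 := ((stdOrthonormalBasis ℝ (V i)).reindex (finCongr (hV i))).orthonormal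
    exact h1.comp_linearIsometry (V i).subtypeₗᵢ
  have hK : IsCompact (Set.pi univ fun _ : Fin d =>
      closedBall (0 : EuclideanSpace ℝ (Fin m)) 1) :=
    isCompact_univ_pi fun _ => isCompact_closedBall _ _
  obtain ⟨c, -, ψ, hψ, hlim⟩ := hK.tendsto_subseq (x := b) (by
    intro i a _
    rw [mem_closedBall_zero_iff]
    exact ((hbo i).1 a).le)
  have hlim' : ∀ a, Tendsto (fun i => b (ψ i) a) atTop (𝓝 (c a)) := fun a =>
    (tendsto_pi_nhds.1 hlim) a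
  have hco : Orthonormal ℝ c := by
    refine ⟨fun a => ?_, fun a a' haa' => ?_⟩
    · have h1 := (hlim' a).norm
      have h2 : (fun i => ‖b (ψ i) a‖) = fun _ => (1 : ℝ) := by
        funext i; exact (hbo _).1 a
      rw [h2] at h1
      exact tendsto_nhds_unique h1 tendsto_const_nhds
    · have h1 := (hlim' a).inner (hlim' a') (𝕜 := ℝ)
      have h2 : (fun i => inner ℝ (b (ψ i) a) (b (ψ i) a')) = fun _ => (0 : ℝ) := by
        funext i; exact (hbo _).2 haa'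
      rw [h2] at h1
      exact tendsto_nhds_unique h1 tendsto_const_nhds
  refine ⟨ψ, hψ, Submodule.span ℝ (range c), ?_, ?_⟩
  · rw [finrank_span_eq_card hco.linearIndependent, Fintype.card_fin]
  · intro t ht
    obtain ⟨q, hq⟩ := (Submodule.mem_span_range_iff_exists_fun ℝ).1 ht
    refine ⟨fun i => ∑ a, q a • b (ψ i) a, fun i => ?_, ?_⟩
    · exact Submodule.sum_mem _ fun a _ => Submodule.smul_mem _ _ (hbV _ a)
    · rw [← hq]
      exact tendsto_finset_sum _ fun a _ => (hlim' a).const_smul (q a)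

/-- limits of subspaces of fixed dimension -/
theorem grass [FiniteDimensional ℝ F] (V : ℕ → Submodule ℝ F) (d : ℕ)
    (hV : ∀ i, Module.finrank ℝ (V i) = d) :
    ∃ ψ : ℕ → ℕ, StrictMono ψ ∧ ∃ V' : Submodule ℝ F,
      Module.finrank ℝ V' = d ∧ ∀ t ∈ V', ∃ s : ℕ → F,
        (∀ i, s i ∈ V (ψ i)) ∧ Tendsto s atTop (𝓝 t) := by
  let e : F ≃L[ℝ] EuclideanSpace ℝ (Fin (Module.finrank ℝ F)) := toEuclidean
  obtain ⟨ψ, hψ, V', hd, hV'⟩ := grass_euc
    (fun i => (V i).map (e.toLinearEquiv : F →ₗ[ℝ] EuclideanSpace ℝ (Fin (Module.finrank ℝ F)))) d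
    (fun i => by rw [LinearEquiv.finrank_map_eq]; exact hV i)
  refine ⟨ψ, hψ, V'.map (e.symm.toLinearEquiv :
    EuclideanSpace ℝ (Fin (Module.finrank ℝ F)) →ₗ[ℝ] F), ?_, ?_⟩
  · rw [LinearEquiv.finrank_map_eq]; exact hd
  · rintro t ⟨t', ht', rfl⟩
    obtain ⟨s, hs, hs'⟩ := hV' t' ht'
    refine ⟨fun i => e.symm (s i), fun i => ?_, ?_⟩
    · obtain ⟨u, hu, hu'⟩ := hs i
      have : e.symm (s i) = u := by
        rw [← hu']; exact e.symm_apply_apply u
      show e.symm (s i) ∈ V (ψ i)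
      rw [this]; exact hu
    · exact (e.symm.continuous.tendsto _).comp hs'

end Vale.Agent.P207.H686
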