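import Vale.Agent.P207.H686.ZD
import Vale.Agent.P207.H686.SAn

/-!
# P207, line N4, row S-BUNDLE: the bundle of forms which make the tensor smooth
-/

set_option linter.all false

open Metric Set Filter Topology
open scoped ContDiff

namespace Vale.Agent.P207.H686

variable {E W X : Type*} [NormedAddCommGroup E] [NormedSpace ℝ E] [NormedAddCommGroup W]
  [NormedSpace ℝ W]

namespace ZD

theorem K_nonneg (D : ZD E W X) (v : X) : 0 ≤ D.K :=
  (norm_nonneg _).trans (D.bd v 0 (by simp))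

theorem M_nonneg (D : ZD E W X) (v : X) (k : ℕ) : 0 ≤ D.M k := by
  obtain ⟨A, L, v', h⟩ := D.St_next v
  obtain ⟨e, -, h2, -⟩ := D.St_N h
  exact (norm_nonneg _).trans (h2 k 0 (by simp))

theorem q_pos (D : ZD E W X) : 0 < D.lam ^ 3 * D.Lam :=
  mul_pos (pow_pos D.lam0 _) (lt_of_lt_of_le one_pos D.Lam1)

theorem one_sub_q (D : ZD E W X) : 0 < 1 - D.lam ^ 3 * D.Lam := sub_pos.2 D.gap

/-- the bound of the total errors -/
noncomputable def ME (D : ZD E W X) (k : ℕ) : ℝ := D.M k / (1 - D.lam ^ 3 * D.Lam)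

theorem ME_nonneg (D : ZD E W X) (v : X) (k : ℕ) : 0 ≤ D.ME k :=
  div_nonneg (D.M_nonneg v k) D.one_sub_q.le

theorem lam_pow_le (D : ZD E W X) {k : ℕ} (hk : 3 ≤ k) : D.lam ^ k ≤ D.lam ^ 3 :=
  pow_le_pow_of_le_one D.lam0.le D.lam1.le hk

/-- precomposition with a linear map -/
noncomputable def pre (B : W →L[ℝ] W) : (W →L[ℝ] ℝ) →L[ℝ] (W →L[ℝ] ℝ) :=
  (ContinuousLinearMap.compL ℝ W W ℝ).flip B

theorem pre_apply (B : W →L[ℝ] W) (f : W →L[ℝ] ℝ) (s : W) : pre B f s = f (B s) := rfl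

theorem pre_norm (B : W →L[ℝ] W) {C : ℝ} (hC : 0 ≤ C) (h : ∀ s, ‖B s‖ ≤ C * ‖s‖) :
    ‖pre B‖ ≤ C := by
  refine ContinuousLinearMap.opNorm_le_bound _ hC fun f => ?_
  refine ContinuousLinearMap.opNorm_le_bound _ (by positivity) fun s => ?_
  rw [pre_apply]
  calc ‖f (B s)‖ ≤ ‖f‖ * ‖B s‖ := f.le_opNorm _
    _ ≤ ‖f‖ * (C * ‖s‖) := by gcongr; exact h s
    _ = C * ‖f‖ * ‖s‖ := by ring

theorem ch_A (D : ZD E W X) {v : X} {n : ℕ} {A : E ≃L[ℝ] E} {L : W ≃L[ℝ] W} {v' : X}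
    (h : Ch D.St v n A L v') : ∀ x, ‖A.symm x‖ ≤ D.lam ^ n * ‖x‖ := by
  induction h with
  | zero => intro x; simp
  | @succ n A L v' A' L' v'' h h' ih =>
    intro x
    have h1 : (A.trans A').symm x = A.symm (A'.symm x) := rfl
    rw [h1]
    calc ‖A.symm (A'.symm x)‖ ≤ D.lam ^ n * ‖A'.symm x‖ := ih _
      _ ≤ D.lam ^ n * (D.lam * ‖x‖) := by
        have := D.St_A h' x
        have h2 := pow_pos D.lam0 n
        gcongr
      _ = D.lam ^ (n + 1) * ‖x‖ := by ring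

theorem ch_L (D : ZD E W X) {v : X} {n : ℕ} {A : E ≃L[ℝ] E} {L : W ≃L[ℝ] W} {v' : X}
    (h : Ch D.St v n A L v') : ∀ s, ‖L.symm s‖ ≤ D.Lam ^ n * ‖s‖ := by
  have hL0 : 0 < D.Lam := lt_of_lt_of_le one_pos D.Lam1
  induction h with
  | zero => intro x; simp
  | @succ n A L v' A' L' v'' h h' ih =>
    intro x
    have h1 : (L.trans L').symm x = L.symm (L'.symm x) := rfl
    rw [h1]
    calc ‖L.symm (L'.symm x)‖ ≤ D.Lam ^ n * ‖L'.symm x‖ := ih _
      _ ≤ D.Lam ^ n * (D.Lam * ‖x‖) := by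
        have := D.St_L h' x
        have h2 := pow_pos hL0 n
        gcongr
      _ = D.Lam ^ (n + 1) * ‖x‖ := by ring

theorem symm_mem (D : ZD E W X) {v : X} {n : ℕ} {A : E ≃L[ℝ] E} {L : W ≃L[ℝ] W} {v' : X}
    (h : Ch D.St v n A L v') {x : E} (hx : x ∈ ball (0 : E) 1) : A.symm x ∈ ball (0 : E) 1 := by
  rw [mem_ball_zero_iff] at hx ⊢
  have h1 := D.ch_A h x
  have h2 : D.lam ^ n ≤ 1 := pow_le_one₀ D.lam0.le D.lam1.le
  calc ‖A.symm x‖ ≤ D.lam ^ n * ‖x‖ := h1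
    _ ≤ 1 * ‖x‖ := by gcongr
    _ < 1 := by linarith

/-- **the `n` step relation** -/
theorem ch_N (D : ZD E W X) {v : X} {n : ℕ} {A : E ≃L[ℝ] E} {L : W ≃L[ℝ] W} {v' : X}
    (h : Ch D.St v n A L v') : ∃ e : E → W →L[ℝ] ℝ, ContDiffOn ℝ ∞ e (ball 0 1) ∧
    (∀ k ≥ 3, ∀ x ∈ ball (0 : E) 1, ‖iteratedFDeriv ℝ k e x‖ ≤ D.ME k) ∧
    ∀ x ∈ ball (0 : E) 1, ∀ s, D.N v' x (L s) = D.N v (A.symm x) s + e x (L s) := by
  have hL0 : 0 < D.Lam := lt_of_lt_of_le one_pos D.Lam1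
  induction h with
  | zero =>
    refine ⟨fun _ => 0, contDiffOn_const, fun k hk x _ => ?_, fun x _ s => by simp⟩
    rw [iteratedFDeriv_const_of_ne (by omega)]
    simpa using D.ME_nonneg v k
  | @succ n A L v' A' L' v'' h h' ih =>
    obtain ⟨e, he, hb, hN⟩ := ih
    obtain ⟨e', he', hb', hN'⟩ := D.St_N h'
    have hmem : ∀ x ∈ ball (0 : E) 1, (0 : E) + (A'.symm : E →L[ℝ] E) x ∈ ball (0 : E) 1 := by
      intro x hx
      rw [zero_add, mem_ball_zero_iff]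
      rw [mem_ball_zero_iff] at hx
      have h1 := D.St_A h' x
      have h2 : D.lam * ‖x‖ ≤ 1 * ‖x‖ := by gcongr; exact D.lam1.le
      calc ‖(A'.symm : E →L[ℝ] E) x‖ ≤ D.lam * ‖x‖ := h1
        _ < 1 := by linarith
    let B : W →L[ℝ] W := (L'.symm : W →L[ℝ] W)
    let B' : E →L[ℝ] E := (A'.symm : E →L[ℝ] E)
    let e1 : E → W →L[ℝ] ℝ := fun x => pre B (e (0 + B' x))
    have he1 : ContDiffOn ℝ ∞ e1 (ball 0 1) := comp_smooth he (pre B) B' 0 hmem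
    refine ⟨fun x => e1 x + e' x, he1.add he', fun k hk x hx => ?_, fun x hx s => ?_⟩
    · have hk' : ((k : ℕ) : WithTop ℕ∞) ≤ ∞ := by exact_mod_cast (le_top : (k : ℕ∞) ≤ ⊤)
      have h1 : iteratedFDeriv ℝ k (fun x => e1 x + e' x) x =
          iteratedFDeriv ℝ k e1 x + iteratedFDeriv ℝ k e' x :=
        iteratedFDeriv_add_apply ((he1.contDiffAt (isOpen_ball.mem_nhds hx)).of_le hk')
          ((he'.contDiffAt (isOpen_ball.mem_nhds hx)).of_le hk')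
      rw [h1]
      have h2 : ‖iteratedFDeriv ℝ k e1 x‖ ≤ D.Lam * (D.ME k * D.lam ^ k) := by
        refine (comp_bound isOpen_ball he (pre B) B' 0 k (hmem x hx)).trans ?_
        have h3 : ‖pre B‖ ≤ D.Lam := pre_norm B hL0.le fun s => D.St_L h' s
        have h4 : ‖B'‖ ≤ D.lam := ContinuousLinearMap.opNorm_le_bound _ D.lam0.le
          fun y => D.St_A h' y
        have h5 := hb k hk _ (hmem x hx)
        have h6 := D.ME_nonneg v k
        gcongr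
      have h7 := hb' k x hx
      have h8 : D.Lam * (D.ME k * D.lam ^ k) ≤ D.ME k * (D.lam ^ 3 * D.Lam) := by
        have h6 := D.ME_nonneg v k
        have h9 := D.lam_pow_le hk
        calc D.Lam * (D.ME k * D.lam ^ k) ≤ D.Lam * (D.ME k * D.lam ^ 3) := by gcongr
          _ = _ := by ring
      have h10 : D.ME k * (D.lam ^ 3 * D.Lam) + D.M k = D.ME k := by
        unfold ME
        have := D.one_sub_q.ne'
        field_simp
        ring
      calc _ ≤ ‖iteratedFDeriv ℝ k e1 x‖ + ‖iteratedFDeriv ℝ k e' x‖ := norm_add_le _ _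
        _ ≤ D.ME k := by linarith
    · have h1 : (L.trans L') s = L' (L s) := rfl
      have h2 : (A.trans A').symm x = A.symm (A'.symm x) := rfl
      have h3 : A'.symm x ∈ ball (0 : E) 1 := by simpa using hmem x hx
      rw [h1, h2, hN' x hx (L s), hN _ h3 s]
      have h4 : e1 x (L' (L s)) = e (A'.symm x) (L s) := by
        simp only [e1, pre_apply, B, B', zero_add]
        simp
      simp only [ContinuousLinearMap.add_apply]
      rw [h4]
      ring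

/-- base change followed by `n` steps -/
theorem zoom_N (D : ZD E W X) {v : X} {p : E} {R : E ≃L[ℝ] E} {S : W ≃L[ℝ] W} {u : X} {n : ℕ}
    {A : E ≃L[ℝ] E} {L : W ≃L[ℝ] W} {w' : X} (h1 : D.BC v p R S u) (h2 : Ch D.St u n A L w')
    (hp : ∀ x ∈ ball (0 : E) 1, p + R.symm (A.symm x) ∈ ball (0 : E) 1) :
    ∃ e : E → W →L[ℝ] ℝ, ContDiffOn ℝ ∞ e (ball 0 1) ∧
    (∀ k ≥ 3, ∀ x ∈ ball (0 : E) 1, ‖iteratedFDeriv ℝ k e x‖ ≤ D.M k + D.ME k) ∧
    ∀ x ∈ ball (0 : E) 1, ∀ s,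
      D.N w' x (L (S s)) = D.N v (p + R.symm (A.symm x)) s + e x (L (S s)) := by
  have hL0 : 0 < D.Lam := lt_of_lt_of_le one_pos D.Lam1
  obtain ⟨e, he, hb, hN⟩ := D.ch_N h2
  obtain ⟨e', he', hb', hN'⟩ := D.BC_N h1
  let U : Set E := {x | x ∈ ball (0 : E) 1 ∧ p + R.symm x ∈ ball (0 : E) 1}
  have hU : IsOpen U := isOpen_ball.inter (isOpen_ball.preimage (by fun_prop))
  have hmem : ∀ x ∈ ball (0 : E) 1, (0 : E) + (A.symm : E →L[ℝ] E) x ∈ U := by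
    intro x hx
    rw [zero_add]
    exact ⟨D.symm_mem h2 hx, hp x hx⟩
  let B : W →L[ℝ] W := (L.symm : W →L[ℝ] W)
  let B' : E →L[ℝ] E := (A.symm : E →L[ℝ] E)
  let e1 : E → W →L[ℝ] ℝ := fun x => pre B (e' (0 + B' x))
  have he1 : ContDiffOn ℝ ∞ e1 (ball 0 1) := comp_smooth he' (pre B) B' 0 hmem
  refine ⟨fun x => e1 x + e x, he1.add he, fun k hk x hx => ?_, fun x hx s => ?_⟩
  · have hk' : ((k : ℕ) : WithTop ℕ∞) ≤ ∞ := by exact_mod_cast (le_top : (k : ℕ∞) ≤ ⊤)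
    have h3 : iteratedFDeriv ℝ k (fun x => e1 x + e x) x =
        iteratedFDeriv ℝ k e1 x + iteratedFDeriv ℝ k e x :=
      iteratedFDeriv_add_apply ((he1.contDiffAt (isOpen_ball.mem_nhds hx)).of_le hk')
        ((he.contDiffAt (isOpen_ball.mem_nhds hx)).of_le hk')
    rw [h3]
    have hM := D.M_nonneg v k
    have h4 : ‖iteratedFDeriv ℝ k e1 x‖ ≤ D.Lam ^ n * (D.M k * (D.lam ^ n) ^ k) := by
      refine (comp_bound hU he' (pre B) B' 0 k (hmem x hx)).trans ?_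
      have h3 : ‖pre B‖ ≤ D.Lam ^ n := pre_norm B (by positivity) fun s => D.ch_L h2 s
      have h4 : ‖B'‖ ≤ D.lam ^ n := ContinuousLinearMap.opNorm_le_bound _
        (pow_nonneg D.lam0.le _) fun y => D.ch_A h2 y
      have h5 : ‖iteratedFDeriv ℝ k e' (0 + B' x)‖ ≤ D.M k :=
        hb' k _ (hmem x hx).1 (hmem x hx).2
      gcongr
    have h5 : D.Lam ^ n * (D.M k * (D.lam ^ n) ^ k) ≤ D.M k := by
      have h6 : D.Lam ^ n * (D.lam ^ n) ^ k = (D.lam ^ k * D.Lam) ^ n := by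
        rw [mul_pow, ← pow_mul, ← pow_mul, mul_comm n k]; ring
      have h7 : (D.lam ^ k * D.Lam) ^ n ≤ 1 := by
        refine pow_le_one₀ (mul_nonneg (pow_nonneg D.lam0.le _) hL0.le) ?_
        calc D.lam ^ k * D.Lam ≤ D.lam ^ 3 * D.Lam := by
              have := D.lam_pow_le hk
              gcongr
          _ ≤ 1 := D.gap.le
      calc _ = D.M k * (D.Lam ^ n * (D.lam ^ n) ^ k) := by ring
        _ ≤ D.M k * 1 := by rw [h6]; gcongr
        _ = D.M k := mul_one _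
    calc _ ≤ ‖iteratedFDeriv ℝ k e1 x‖ + ‖iteratedFDeriv ℝ k e x‖ := norm_add_le _ _
      _ ≤ D.M k + D.ME k := add_le_add (h4.trans h5) (hb k hk x hx)
  · have h3 : A.symm x ∈ ball (0 : E) 1 := D.symm_mem h2 hx
    rw [hN x hx (S s), hN' _ h3 (hp x hx) s]
    have h4 : e1 x (L (S s)) = e' (A.symm x) (S s) := by
      simp only [e1, pre_apply, B, B', zero_add]
      simp
    simp only [ContinuousLinearMap.add_apply]
    rw [h4]
    ring

/-- `N v · s` is, on the ball, a uniform limit of smooth functions with `k`-th derivative bounded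
by `K'` -/
def Apx (D : ZD E W X) (k : ℕ) (v : X) (c : E) (r : ℝ) (s : W) (K' : ℝ) : Prop :=
  ∀ ε > 0, ∃ g : E → ℝ, ContDiffOn ℝ ∞ g (ball c r) ∧
    (∀ x ∈ ball c r, ‖iteratedFDeriv ℝ k g x‖ ≤ K') ∧ ∀ x ∈ ball c r, |g x - D.N v x s| ≤ ε

theorem Apx.mono {D : ZD E W X} {k : ℕ} {v : X} {c : E} {r : ℝ} {s : W} {K' K'' : ℝ}
    (h : Apx D k v c r s K') (hK : K' ≤ K'') : Apx D k v c r s K'' := by
  intro ε hε
  obtain ⟨g, h1, h2, h3⟩ := h ε hε
  exact ⟨g, h1, fun x hx => (h2 x hx).trans hK, h3⟩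

theorem Apx.mono_ball {D : ZD E W X} {k : ℕ} {v : X} {c c' : E} {r r' : ℝ} {s : W} {K' : ℝ}
    (h : Apx D k v c r s K') (hb : ball c' r' ⊆ ball c r) : Apx D k v c' r' s K' := by
  intro ε hε
  obtain ⟨g, h1, h2, h3⟩ := h ε hε
  exact ⟨g, h1.mono hb, fun x hx => h2 x (hb hx), fun x hx => h3 x (hb hx)⟩

theorem Apx.zero {D : ZD E W X} {k : ℕ} {v : X} {c : E} {r : ℝ} : Apx D k v c r 0 0 := by
  intro ε hε
  refine ⟨fun _ => 0, contDiffOn_const, fun x _ => ?_, fun x _ => by simpa using hε.le⟩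
  have h1 : iteratedFDeriv ℝ k (fun _ : E => (0 : ℝ)) = 0 := iteratedFDeriv_zero_fun
  rw [h1]; simp

theorem Apx.add {D : ZD E W X} {k : ℕ} {v : X} {c : E} {r : ℝ} {s t : W} {K' K'' : ℝ}
    (h : Apx D k v c r s K') (h' : Apx D k v c r t K'') : Apx D k v c r (s + t) (K' + K'') := by
  intro ε hε
  obtain ⟨g, h1, h2, h3⟩ := h (ε / 2) (by positivity)
  obtain ⟨g', h1', h2', h3'⟩ := h' (ε / 2) (by positivity)
  have hk' : ((k : ℕ) : WithTop ℕ∞) ≤ ∞ := by exact_mod_cast (le_top : (k : ℕ∞) ≤ ⊤)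
  refine ⟨fun x => g x + g' x, h1.add h1', fun x hx => ?_, fun x hx => ?_⟩
  · have h4 : iteratedFDeriv ℝ k (fun x => g x + g' x) x =
        iteratedFDeriv ℝ k g x + iteratedFDeriv ℝ k g' x :=
      iteratedFDeriv_add_apply ((h1.contDiffAt (isOpen_ball.mem_nhds hx)).of_le hk')
        ((h1'.contDiffAt (isOpen_ball.mem_nhds hx)).of_le hk')
    rw [h4]
    exact (norm_add_le _ _).trans (add_le_add (h2 x hx) (h2' x hx))
  · rw [map_add]
    have h5 := abs_le.1 (h3 x hx)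
    have h6 := abs_le.1 (h3' x hx)
    rw [abs_le]
    constructor <;> linarith [h5.1, h5.2, h6.1, h6.2]

theorem Apx.smul {D : ZD E W X} {k : ℕ} {v : X} {c : E} {r : ℝ} {s : W} {K' : ℝ}
    (h : Apx D k v c r s K') (a : ℝ) : Apx D k v c r (a • s) (|a| * K') := by
  intro ε hε
  obtain ⟨g, h1, h2, h3⟩ := h (ε / (|a| + 1)) (by positivity)
  have hk' : ((k : ℕ) : WithTop ℕ∞) ≤ ∞ := by exact_mod_cast (le_top : (k : ℕ∞) ≤ ⊤)
  refine ⟨fun x => a • g x, h1.const_smul a, fun x hx => ?_, fun x hx => ?_⟩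
  · have h4 : iteratedFDeriv ℝ k (fun x => a • g x) x = a • iteratedFDeriv ℝ k g x := by
      have h5 := iteratedFDeriv_const_smul_apply (𝕜 := ℝ) (i := k) (a := a) (f := g) (x := x)
        ((h1.contDiffAt (isOpen_ball.mem_nhds hx)).of_le hk')
      exact h5
    rw [h4, norm_smul, Real.norm_eq_abs]
    exact mul_le_mul_of_nonneg_left (h2 x hx) (abs_nonneg _)
  · rw [map_smul, ← smul_sub, smul_eq_mul, abs_mul]
    calc |a| * |g x - D.N v x s| ≤ (|a| + 1) * (ε / (|a| + 1)) := by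
          gcongr
          · linarith
          · exact h3 x hx
      _ = ε := by field_simp

/-- the approximable forms -/
def SK (D : ZD E W X) (k : ℕ) (v : X) (c : E) (r : ℝ) : Submodule ℝ W where
  carrier := {s | ∃ K', 0 ≤ K' ∧ Apx D k v c r s K'}
  add_mem' := by
    rintro a b ⟨K1, h1, h1'⟩ ⟨K2, h2, h2'⟩
    exact ⟨K1 + K2, by positivity, h1'.add h2'⟩
  zero_mem' := ⟨0, le_rfl, Apx.zero⟩
  smul_mem' := by
    rintro a s ⟨K1, h1, h1'⟩
    exact ⟨|a| * K1, by positivity, h1'.smul a⟩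

theorem SK_unif [FiniteDimensional ℝ W] (D : ZD E W X) (k : ℕ) (v : X) (c : E) (r : ℝ) :
    ∃ C, 0 ≤ C ∧ ∀ s ∈ D.SK k v c r, Apx D k v c r s (C * ‖s‖) := by
  classical
  let V := D.SK k v c r
  let b := Module.finBasis ℝ V
  have h1 : ∀ a, ∃ K', 0 ≤ K' ∧ Apx D k v c r (b a : W) K' := fun a => (b a).2
  choose K' hK0 hK using h1
  let φ : Fin (Module.finrank ℝ V) → (V →L[ℝ] ℝ) := fun a => LinearMap.toContinuousLinearMap
    (b.coord a)
  have hsum : ∀ (q : Fin (Module.finrank ℝ V) → ℝ) (T : Finset (Fin (Module.finrank ℝ V))),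
      Apx D k v c r (∑ a ∈ T, q a • (b a : W)) (∑ a ∈ T, |q a| * K' a) := by
    intro q T
    induction T using Finset.induction_on with
    | empty => simpa using Apx.zero
    | insert a T ha ih =>
      rw [Finset.sum_insert ha, Finset.sum_insert ha]
      exact ((hK a).smul (q a)).add ih
  refine ⟨∑ a, ‖φ a‖ * K' a, Finset.sum_nonneg fun a _ => mul_nonneg (φ a).opNorm_nonneg (hK0 a),
    fun s hs => ?_⟩
  have h2 : (∑ a, b.repr ⟨s, hs⟩ a • (b a : W)) = s := by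
    have h3 := congrArg (Submodule.subtype V) (b.sum_repr ⟨s, hs⟩)
    rw [map_sum] at h3
    simpa only [map_smul, Submodule.subtype_apply] using h3
  have h3 := hsum (fun a => b.repr ⟨s, hs⟩ a) Finset.univ
  rw [h2] at h3
  refine h3.mono ?_
  rw [Finset.sum_mul]
  refine Finset.sum_le_sum fun a _ => ?_
  have h4 : |b.repr ⟨s, hs⟩ a| ≤ ‖φ a‖ * ‖s‖ := (φ a).le_opNorm ⟨s, hs⟩
  calc |b.repr ⟨s, hs⟩ a| * K' a ≤ (‖φ a‖ * ‖s‖) * K' a := by
        have := hK0 a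
        gcongr
    _ = ‖φ a‖ * K' a * ‖s‖ := by ring

/-- the approximants after a zoom -/
theorem approx1 (D : ZD E W X) {k : ℕ} (hk : 3 ≤ k) {v : X} {c : E} {r C : ℝ} (hC : 0 ≤ C)
    {p : E} {R : E ≃L[ℝ] E} {S : W ≃L[ℝ] W} {u : X} {n : ℕ}
    {A : E ≃L[ℝ] E} {L : W ≃L[ℝ] W} {w' : X} (h1 : D.BC v p R S u) (h2 : Ch D.St u n A L w')
    (hp : p ∈ ball c (r / 2)) (hn : D.Kb * D.lam ^ n ≤ r / 2) (hsub : ball c r ⊆ ball (0 : E) 1)
    {σ : W} (hσ : Apx D k v c r σ (C * ‖σ‖)) {t : W} (ht : t = L (S σ)) {ε : ℝ} (hε : 0 < ε) :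
    ∃ F : E → ℝ, ContDiffOn ℝ ∞ F (ball 0 1) ∧
      (∀ x ∈ ball (0 : E) 1, |F x - D.N w' x t| ≤
        C * D.Kb ^ (k + 1) * ‖t‖ * (D.lam ^ 3 * D.Lam) ^ n + ε) ∧
      ∀ j ≥ k, ∀ x ∈ ball (0 : E) 1, ‖iteratedFDeriv ℝ j F x‖ ≤ ‖t‖ * (D.M j + D.ME j) := by
  have hL0 : 0 < D.Lam := lt_of_lt_of_le one_pos D.Lam1
  have hKb : 0 < D.Kb := lt_of_lt_of_le one_pos D.Kb1
  have hin : ∀ x ∈ ball (0 : E) 1, p + R.symm (A.symm x) ∈ ball c r := by
    intro x hx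
    rw [mem_ball_zero_iff] at hx
    rw [mem_ball, dist_eq_norm] at hp ⊢
    have h3 : ‖R.symm (A.symm x)‖ ≤ D.Kb * (D.lam ^ n * ‖x‖) :=
      ((D.BC_R h1).2 _).trans (by gcongr; exact D.ch_A h2 x)
    have h4 : D.Kb * (D.lam ^ n * ‖x‖) ≤ D.Kb * D.lam ^ n := by
      have h5 : 0 ≤ D.Kb * D.lam ^ n := mul_nonneg hKb.le (pow_nonneg D.lam0.le _)
      nlinarith
    calc ‖p + R.symm (A.symm x) - c‖ = ‖(p - c) + R.symm (A.symm x)‖ := by congr 1; abel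
      _ ≤ ‖p - c‖ + ‖R.symm (A.symm x)‖ := norm_add_le _ _
      _ < r := by linarith
  obtain ⟨e, he, hb, hN⟩ := D.zoom_N h1 h2 (fun x hx => hsub (hin x hx))
  obtain ⟨g, hg, hgk, hgN⟩ := hσ ε hε
  -- the rescaled approximant
  let B : E →L[ℝ] E := (R.symm : E →L[ℝ] E).comp (A.symm : E →L[ℝ] E)
  have hB : ‖B‖ ≤ D.Kb * D.lam ^ n := by
    refine ContinuousLinearMap.opNorm_le_bound _
      (mul_nonneg hKb.le (pow_nonneg D.lam0.le _)) fun y => ?_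
    calc ‖B y‖ = ‖R.symm (A.symm y)‖ := rfl
      _ ≤ D.Kb * ‖A.symm y‖ := (D.BC_R h1).2 _
      _ ≤ D.Kb * (D.lam ^ n * ‖y‖) := by gcongr; exact D.ch_A h2 y
      _ = D.Kb * D.lam ^ n * ‖y‖ := by ring
  let g' : E → ℝ := fun x => (ContinuousLinearMap.id ℝ ℝ) (g (p + B x))
  have hg' : ContDiffOn ℝ ∞ g' (ball 0 1) := comp_smooth hg _ B p (V := ball 0 1) hin
  have hσt : ‖σ‖ ≤ D.Kb * (D.Lam ^ n * ‖t‖) := by
    have h3 : S σ = L.symm t := by rw [ht, ContinuousLinearEquiv.symm_apply_apply]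
    have h4 : σ = S.symm (S σ) := (S.symm_apply_apply σ).symm
    calc ‖σ‖ = ‖S.symm (S σ)‖ := by rw [S.symm_apply_apply]
      _ ≤ D.Kb * ‖S σ‖ := (D.BC_S h1).2 _
      _ ≤ D.Kb * (D.Lam ^ n * ‖t‖) := by rw [h3]; gcongr; exact D.ch_L h2 t
  set η : ℝ := C * D.Kb ^ (k + 1) * ‖t‖ * (D.lam ^ 3 * D.Lam) ^ n with hη
  have hg'k : ∀ x ∈ ball (0 : E) 1, ‖iteratedFDeriv ℝ k g' x‖ ≤ η := by
    intro x hx
    refine (comp_bound isOpen_ball hg (ContinuousLinearMap.id ℝ ℝ) B p k (hin x hx)).trans ?_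
    have h3 : ‖ContinuousLinearMap.id ℝ ℝ‖ ≤ 1 := ContinuousLinearMap.norm_id_le
    have h4 := hgk _ (hin x hx)
    have h4' : ‖iteratedFDeriv ℝ k g (p + B x)‖ ≤ C * (D.Kb * (D.Lam ^ n * ‖t‖)) := by
      refine le_trans h4 ?_
      gcongr
    have h5 : ‖B‖ ^ k ≤ (D.Kb * D.lam ^ n) ^ k := by gcongr
    have h6 : (D.lam ^ k * D.Lam) ^ n ≤ (D.lam ^ 3 * D.Lam) ^ n := by
      have h7 := D.lam_pow_le hk
      have h8 : 0 ≤ D.lam ^ k * D.Lam := mul_nonneg (pow_nonneg D.lam0.le _) hL0.le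
      gcongr
    have h9 : 0 ≤ C * D.Kb ^ (k + 1) * ‖t‖ := by positivity
    calc _ ≤ 1 * ((C * (D.Kb * (D.Lam ^ n * ‖t‖))) * (D.Kb * D.lam ^ n) ^ k) := by
          refine mul_le_mul h3 ?_ (by positivity) zero_le_one
          refine mul_le_mul h4' h5 (by positivity) ?_
          positivity
      _ = C * D.Kb ^ (k + 1) * ‖t‖ * (D.lam ^ k * D.Lam) ^ n := by
          rw [mul_pow, mul_pow, ← pow_mul, ← pow_mul, mul_comm n k, pow_succ]; ring
      _ ≤ η := by rw [hη]; gcongr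
  have hk1 : 1 ≤ k := by omega
  have htay := tay_err hk1 hg' hg'k
  let e2 : E → ℝ := fun x => e x t
  have he2 : ContDiffOn ℝ ∞ e2 (ball 0 1) := he.clm_apply contDiffOn_const
  refine ⟨fun x => tay k g' x + e2 x, (tay_smooth k g').contDiffOn.add he2,
    fun x hx => ?_, fun j hj x hx => ?_⟩
  · have h3 := hN x hx σ
    rw [← ht] at h3
    have h4 := hgN _ (hin x hx)
    have h5 := htay x hx
    have h6 : g' x = g (p + R.symm (A.symm x)) := rfl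
    rw [Real.norm_eq_abs, h6] at h5
    rw [h3]
    have h7 := abs_le.1 h4
    have h8 := abs_le.1 h5
    show |tay k g' x + e x t - (D.N v (p + R.symm (A.symm x)) σ + e x t)| ≤ η + ε
    rw [abs_le]
    constructor <;> linarith [h7.1, h7.2, h8.1, h8.2]
  · have hj' : ((j : ℕ) : WithTop ℕ∞) ≤ ∞ := by exact_mod_cast (le_top : (j : ℕ∞) ≤ ⊤)
    have h3 : iteratedFDeriv ℝ j (fun x => tay k g' x + e2 x) x =
        iteratedFDeriv ℝ j (tay k g') x + iteratedFDeriv ℝ j e2 x :=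
      iteratedFDeriv_add_apply ((tay_smooth k g').contDiffAt.of_le hj')
        ((he2.contDiffAt (isOpen_ball.mem_nhds hx)).of_le hj')
    rw [h3, tay_zero k g' hj x, zero_add]
    let Ψ : (W →L[ℝ] ℝ) →L[ℝ] ℝ := ContinuousLinearMap.apply ℝ ℝ t
    have h4 : e2 = Ψ ∘ e := rfl
    rw [h4, Ψ.iteratedFDeriv_comp_left (he.contDiffAt (isOpen_ball.mem_nhds hx)) hj']
    refine (ContinuousLinearMap.norm_compContinuousMultilinearMap_le _ _).trans ?_
    have h5 : ‖Ψ‖ ≤ ‖t‖ := by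
      refine ContinuousLinearMap.opNorm_le_bound _ (norm_nonneg _) fun f => ?_
      show ‖f t‖ ≤ ‖t‖ * ‖f‖
      rw [mul_comm]
      exact f.le_opNorm t
    have h6 := hb j (by omega) x hx
    gcongr

end ZD

end Vale.Agent.P207.H686
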