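import Vale.Agent.P207.H686.SBun2
import Vale.Agent.P207.H106.Sec

/-!
# P207, line N4, row S-BUNDLE (e): smooth sections have values in the bundle (H106.sec_of plugged)
-/

set_option linter.all false

open Metric Set Filter Topology
open scoped ContDiff

namespace Vale.Agent.P207.H686

namespace ZD

variable {E W X : Type*} [NormedAddCommGroup E] [NormedSpace ℝ E] [NormedAddCommGroup W]
  [NormedSpace ℝ W] [FiniteDimensional ℝ E] [FiniteDimensional ℝ W]

/-- **(e)** smooth sections with smooth pairing have values in the bundle -/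
theorem sm_sec (D : ZD E W X) {v : X} {O : Set E} (hO : IsOpen O) (hO1 : O ⊆ ball 0 1) {σ : E → W}
    (hσ : ContDiffOn ℝ ∞ σ O) (hN : ContDiffOn ℝ ∞ (fun x => D.N v x (σ x)) O) {x0 : E}
    (hx0 : x0 ∈ O) : σ x0 ∈ D.Sm v :=
  H106.sec_of D (fun h s => D.St_L' h s) D.sm_rank D.sm_bound (fun h s => D.sm_step h s)
    (fun h s => D.sm_bc h s) (fun v w h s t hs hst => D.sm_closed h hs hst)
    (fun v s f K' hf hb hlim => D.sm_fin le_rfl isOpen_ball subset_rfl ⟨0, by simp⟩ f hf hb hlim)
    hO hO1 hσ hN hx0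

end ZD

end Vale.Agent.P207.H686
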